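import Mathlib

/-!
A zero-divisor pair in `K[G]` is decided by the subgroup generated by the support of one factor
alone: if `a` is supported in a subgroup `H` with the unique-product property and `a * b = 0` in
`K[G]`, with `b` arbitrary and `G` arbitrary, then `a = 0` or `b = 0`. So in a torsion-free group no
element with at most two group elements in its support is a left zero divisor.
-/

namespace Vale.Agent.Results.P201.A_local

open scoped Classical

variable {K G : Type*} [Field K] [Group G]

/-- Every group element with nonzero coefficient in `x` lies in `H`. -/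
def SuppIn (H : Subgroup G) (x : MonoidAlgebra K G) : Prop :=
  ∀ g, x.coeff g ≠ 0 → g ∈ H

theorem exists_coeff_ne {x : MonoidAlgebra K G} (hx : x ≠ 0) : ∃ g, x.coeff g ≠ 0 := by
  by_contra h
  push Not at h
  exact hx (by ext g; simpa using h g)

theorem main (H : Subgroup G) (hU : UniqueProds H) {a b : MonoidAlgebra K G} (ha : SuppIn H a)
    (hab : a * b = 0) : a = 0 ∨ b = 0 := by
  by_contra hcon
  push Not at hcon
  obtain ⟨ha0, hb0⟩ := hcon
  obtain ⟨g1, hg1⟩ := exists_coeff_ne ha0
  obtain ⟨g0, hg0⟩ := exists_coeff_ne hb0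
  let A : Finset H := a.coeff.support.subtype (· ∈ H)
  let B : Finset H := (b.coeff.support.image (fun g => g * g0⁻¹)).subtype (· ∈ H)
  have hA : A.Nonempty :=
    ⟨⟨g1, ha g1 hg1⟩, Finset.mem_subtype.mpr (Finsupp.mem_support_iff.mpr hg1)⟩
  have hB : B.Nonempty := by
    refine ⟨1, Finset.mem_subtype.mpr (Finset.mem_image.mpr ⟨g0, Finsupp.mem_support_iff.mpr hg0, ?_⟩)⟩
    simp
  obtain ⟨u, hu, v, hv, huniq⟩ := UniqueProds.uniqueMul_of_nonempty hA hB
  have hu' : a.coeff (u : G) ≠ 0 := Finsupp.mem_support_iff.mp (Finset.mem_subtype.mp hu)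
  have hv' : b.coeff ((v : G) * g0) ≠ 0 := by
    obtain ⟨w, hw, hwe⟩ := Finset.mem_image.mp (Finset.mem_subtype.mp hv)
    have : (v : G) * g0 = w := by rw [← hwe]; group
    rw [this]
    exact Finsupp.mem_support_iff.mp hw
  have key : (a * b).coeff ((u : G) * (v : G) * g0) = a.coeff (u : G) * b.coeff ((v : G) * g0) := by
    rw [MonoidAlgebra.coeff_mul]
    unfold Finsupp.sum
    dsimp only
    rw [Finset.sum_eq_single (u : G)]
    · rw [Finset.sum_eq_single ((v : G) * g0)]
      · simp [mul_assoc]
      · intro y _ hne
        rw [if_neg]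
        intro he
        apply hne
        have : (u : G) * y = (u : G) * ((v : G) * g0) := by rw [he, mul_assoc]
        exact mul_left_cancel this
      · intro h
        exact absurd (Finsupp.notMem_support_iff.mp h) hv'
    · intro x hx hne
      apply Finset.sum_eq_zero
      intro y hy
      rw [if_neg]
      intro he
      have hxH : x ∈ H := ha x (Finsupp.mem_support_iff.mp hx)
      have hyg : y * g0⁻¹ = x⁻¹ * ((u : G) * (v : G)) := by
        have : y = x⁻¹ * ((u : G) * (v : G) * g0) := by rw [← he]; group
        rw [this]; group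
      have hyH : y * g0⁻¹ ∈ H := by
        rw [hyg]
        exact H.mul_mem (H.inv_mem hxH) (H.mul_mem u.2 v.2)
      have hmemA : (⟨x, hxH⟩ : H) ∈ A := Finset.mem_subtype.mpr hx
      have hmemB : (⟨y * g0⁻¹, hyH⟩ : H) ∈ B :=
        Finset.mem_subtype.mpr (Finset.mem_image.mpr ⟨y, hy, rfl⟩)
      have hprod : (⟨x, hxH⟩ : H) * ⟨y * g0⁻¹, hyH⟩ = u * v := by
        apply Subtype.ext
        show x * (y * g0⁻¹) = (u : G) * (v : G)
        rw [hyg]; group
      have := (huniq hmemA hmemB hprod).1
      exact hne (congrArg Subtype.val this)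
    · intro h
      exact absurd (Finsupp.notMem_support_iff.mp h) hu'
  rw [hab] at key
  have h0 : (0 : MonoidAlgebra K G).coeff ((u : G) * (v : G) * g0) = 0 := by simp
  rw [h0] at key
  exact mul_ne_zero hu' hv' key.symm

theorem coeff_single_inv_mul (g x : G) (a : MonoidAlgebra K G) :
    (MonoidAlgebra.single g⁻¹ (1 : K) * a).coeff x = a.coeff (g * x) := by
  rw [MonoidAlgebra.coeff_single_mul_apply]
  simp

/-- At most two group elements in the support of the first factor, in a torsion-free group. -/
theorem two_support (hG : ∀ g : G, g ≠ 1 → ¬ IsOfFinOrder g) {a b : MonoidAlgebra K G}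
    (hs : a.coeff.support.card ≤ 2) (hab : a * b = 0) : a = 0 ∨ b = 0 := by
  by_cases ha0 : a = 0
  · exact Or.inl ha0
  obtain ⟨g, hg⟩ := exists_coeff_ne ha0
  have hgm : g ∈ a.coeff.support := Finsupp.mem_support_iff.mpr hg
  have hc : (a.coeff.support.erase g).card ≤ 1 := by
    rw [Finset.card_erase_of_mem hgm]
    omega
  obtain ⟨h, hh⟩ := Finset.card_le_one_iff_subset_singleton.mp hc
  have hsupp : ∀ x, a.coeff x ≠ 0 → x = g ∨ x = h := by
    intro x hx
    by_cases hxg : x = g
    · exact Or.inl hxg
    · right
      have : x ∈ a.coeff.support.erase g :=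
        Finset.mem_erase.mpr ⟨hxg, Finsupp.mem_support_iff.mpr hx⟩
      exact Finset.mem_singleton.mp (hh this)
  set t : G := g⁻¹ * h with ht
  set a' : MonoidAlgebra K G := MonoidAlgebra.single g⁻¹ (1 : K) * a with ha'
  have hzero : a' * b = 0 := by rw [ha', mul_assoc, hab, mul_zero]
  have hback : a' = 0 → a = 0 := by
    intro h0
    have : a = MonoidAlgebra.single g (1 : K) * a' := by
      rw [ha', ← mul_assoc, MonoidAlgebra.single_mul_single, mul_inv_cancel, mul_one,
        ← MonoidAlgebra.one_def, one_mul]
    rw [this, h0, mul_zero]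
  have hx : ∀ x, a'.coeff x ≠ 0 → x = 1 ∨ x = t := by
    intro x hx
    rw [ha', coeff_single_inv_mul] at hx
    rcases hsupp _ hx with e | e
    · left
      exact mul_left_cancel (a := g) (by rw [e, mul_one])
    · right
      rw [ht, ← e]
      group
  by_cases ht1 : t = 1
  · have hU : UniqueProds (⊥ : Subgroup G) :=
      UniqueProds.of_injective_mulHom (1 : (⊥ : Subgroup G) →ₙ* Multiplicative ℤ)
        (Function.injective_of_subsingleton _) inferInstance
    have hS : SuppIn (⊥ : Subgroup G) a' := by
      intro x hxx
      rcases hx x hxx with e | e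
      · rw [e]; exact Subgroup.one_mem _
      · rw [e, ht1]; exact Subgroup.one_mem _
    rcases main ⊥ hU hS hzero with h0 | h0
    · exact Or.inl (hback h0)
    · exact Or.inr h0
  · have hinj : Function.Injective (zpowersHom G t) := by
      intro p q hpq
      have h1 : (fun n : ℤ => t ^ n) p.toAdd = (fun n : ℤ => t ^ n) q.toAdd := by
        simpa [zpowersHom_apply] using hpq
      have h2 := (injective_zpow_iff_not_isOfFinOrder.mpr (hG t ht1)) h1
      exact Multiplicative.toAdd.injective h2
    have hU : UniqueProds (zpowersHom G t).range :=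
      UniqueProds.of_injective_mulHom
        ((MonoidHom.ofInjective hinj).symm.toMonoidHom.toMulHom)
        (MulEquiv.injective _) inferInstance
    have hS : SuppIn (zpowersHom G t).range a' := by
      intro x hxx
      rcases hx x hxx with e | e
      · rw [e]; exact Subgroup.one_mem _
      · rw [e]
        exact ⟨Multiplicative.ofAdd 1, by simp [zpowersHom_apply]⟩
    rcases main _ hU hS hzero with h0 | h0
    · exact Or.inl (hback h0)
    · exact Or.inr h0

/-- For a field `K` and any group `G`: if `a` is supported in a subgroup `H` with the unique-product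
property and `a * b = 0`, `b` arbitrary, then `a = 0` or `b = 0`. If `G` is torsion-free, this holds for
every `a` with at most two group elements in its support, `b` arbitrary. -/
theorem result {K G : Type*} [Field K] [Group G] :
    (∀ (H : Subgroup G), UniqueProds H → ∀ a b : MonoidAlgebra K G, SuppIn H a → a * b = 0 →
      a = 0 ∨ b = 0) ∧
    ((∀ g : G, g ≠ 1 → ¬ IsOfFinOrder g) → ∀ a b : MonoidAlgebra K G,
      a.coeff.support.card ≤ 2 → a * b = 0 → a = 0 ∨ b = 0) :=
  ⟨fun H hU _ _ ha hab => main H hU ha hab, fun hG _ _ hs hab => two_support hG hs hab⟩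

end Vale.Agent.Results.P201.A_local
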